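import Vale.Agent.Lib.P074q.Conj

open MeasureTheory ENNReal
open scoped NNReal RealInnerProductSpace

namespace Vale.Agent.Lib.P074q

variable {d : ℕ}

/-- From an a.e. subgradient inequality on `K` to a normalised pair of potentials.
Take `b = conj K φ`, `a = conj Y b`. -/
theorem potPair_of_subgrad {K Y : Set (E d)} {M R : ℝ≥0}
    (hKM : ∀ z ∈ K, ‖z‖ ≤ M) (hYR : ∀ y ∈ Y, ‖y‖ ≤ R)
    (ρ : Measure (E d)) [IsProbabilityMeasure ρ] (hρK : ∀ᵐ x ∂ρ, x ∈ K)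
    (T : E d → E d) (hTY : ∀ᵐ x ∂ρ, T x ∈ Y) (φ : E d → ℝ)
    (hφ : ∀ᵐ x ∂ρ, ∀ z ∈ K, φ x + ⟪T x, z - x⟫ ≤ φ z) :
    ∃ a b : E d → ℝ, PotPair Y M R a b ∧ Tight ρ T a b := by
  -- a good base point
  obtain ⟨x₀, hx₀K, hx₀Y, hx₀φ⟩ := (hρK.and (hTY.and hφ)).exists
  have hKne : K.Nonempty := ⟨x₀, hx₀K⟩
  have hYne : Y.Nonempty := ⟨T x₀, hx₀Y⟩
  have hφb : ∃ c, ∀ z ∈ K, c ≤ φ z := by
    refine ⟨φ x₀ - R * (M + M), fun z hz => ?_⟩
    have h1 := hx₀φ z hz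
    have h2 : |⟪T x₀, z - x₀⟫| ≤ ‖T x₀‖ * ‖z - x₀‖ := abs_real_inner_le_norm _ _
    have h3 : ‖z - x₀‖ ≤ M + M := (norm_sub_le _ _).trans (add_le_add (hKM z hz) (hKM x₀ hx₀K))
    have h4 : ‖T x₀‖ * ‖z - x₀‖ ≤ R * (M + M) :=
      mul_le_mul (hYR _ hx₀Y) h3 (norm_nonneg _) R.coe_nonneg
    have h5 := neg_abs_le ⟪T x₀, z - x₀⟫
    linarith
  set b : E d → ℝ := conj K φ with hb
  have hblip : LipschitzWith M b := conj_lipschitz hKne hKM hφb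
  have hbb : ∃ c, ∀ y ∈ Y, c ≤ b y := by
    refine ⟨b 0 - M * R, fun y hy => ?_⟩
    have h1 := hblip.dist_le_mul y 0
    rw [Real.dist_eq, dist_zero_right] at h1
    have h2 := neg_abs_le (b y - b 0)
    have h3 : (M : ℝ) * ‖y‖ ≤ M * R := mul_le_mul_of_nonneg_left (hYR y hy) M.coe_nonneg
    linarith
  set a : E d → ℝ := conj Y b with ha
  have hfy : ∀ x, ∀ y ∈ Y, ⟪x, y⟫ ≤ a x + b y := by
    intro x y hy
    have := le_conj hYR hbb x hy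
    linarith
  refine ⟨a, b, ⟨hfy, conj_lipschitz hYne hYR hbb, hblip, conj_mid hYne hYR hbb⟩, ?_⟩
  filter_upwards [hρK, hTY, hφ] with x hxK hxY hxφ
  apply le_antisymm _ (hfy x (T x) hxY)
  have h1 : b (T x) ≤ ⟪T x, x⟫ - φ x := by
    apply conj_le hKne
    intro z hz
    have h := hxφ z hz
    rw [inner_sub_right] at h
    linarith
  have h2 : a x ≤ φ x := by
    apply conj_le hYne
    intro y hy
    have h := le_conj hKM hφb y hxK
    rw [real_inner_comm] at h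
    show ⟪x, y⟫ - b y ≤ φ x
    linarith
  rw [real_inner_comm] at h1
  linarith

end Vale.Agent.Lib.P074q
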