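import Vale.Agent.Lib.P074q.Defs
import Vale.Agent.Lib.P074q.Subgrad
import Vale.Agent.Lib.P074c.Defs

open MeasureTheory ENNReal
open scoped NNReal RealInnerProductSpace

namespace Vale.Agent.Lib.P074q

variable {d : ℕ}

/-- Easy half of Brenier's theorem: a Borel map pushing the uniform measure on a compact `K` to a
measure `μ` concentrated on a compact `Y`, and which is a.e. a subgradient on `K` of some function,
is a quadratic optimal transport map. -/
theorem isOTMap_of_subgrad {K Y : Set (E d)} (hK : IsCompact K) (hv0 : volume K ≠ 0)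
    (hY : IsCompact Y) (μ : Measure (E d)) (hμY : ∀ᵐ y ∂μ, y ∈ Y)
    (T : E d → E d) (hT : Measurable T) (hmap : (Vale.Agent.Lib.P074c.unif K).map T = μ)
    (φ : E d → ℝ)
    (hφ : ∀ᵐ x ∂(Vale.Agent.Lib.P074c.unif K), ∀ z ∈ K, φ x + ⟪T x, z - x⟫ ≤ φ z) :
    Vale.Agent.Lib.P074c.IsOTMap (Vale.Agent.Lib.P074c.unif K) μ T := by
  classical
  set ρ : Measure (E d) := Vale.Agent.Lib.P074c.unif K with hρdef
  have hKm : MeasurableSet K := hK.measurableSet
  have hYm : MeasurableSet Y := hY.measurableSet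
  have hvtop : volume K ≠ ∞ := hK.measure_lt_top.ne
  have : IsProbabilityMeasure ρ := by
    refine ⟨?_⟩
    simp only [hρdef, Vale.Agent.Lib.P074c.unif, Measure.smul_apply, Measure.restrict_apply_univ,
      smul_eq_mul]
    exact ENNReal.inv_mul_cancel hv0 hvtop
  have hρK : ∀ᵐ x ∂ρ, x ∈ K := by
    have h1 : ∀ᵐ x ∂(volume.restrict K), x ∈ K := ae_restrict_mem hKm
    have hac : ρ ≪ volume.restrict K := by
      simp only [hρdef, Vale.Agent.Lib.P074c.unif]
      exact Measure.smul_absolutelyContinuous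
    exact hac.ae_le h1
  obtain ⟨M, hM⟩ : ∃ M : ℝ≥0, ∀ z ∈ K, ‖z‖ ≤ M := by
    obtain ⟨C, hC⟩ := hK.isBounded.exists_norm_le
    exact ⟨C.toNNReal, fun z hz => (hC z hz).trans (Real.le_coe_toNNReal C)⟩
  obtain ⟨R, hR⟩ : ∃ R : ℝ≥0, ∀ z ∈ Y, ‖z‖ ≤ R := by
    obtain ⟨C, hC⟩ := hY.isBounded.exists_norm_le
    exact ⟨C.toNNReal, fun z hz => (hC z hz).trans (Real.le_coe_toNNReal C)⟩
  have hTY : ∀ᵐ x ∂ρ, T x ∈ Y := by
    have h := hμY
    rw [← hmap] at h
    exact ae_of_ae_map hT.aemeasurable h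
  obtain ⟨a, b, hP, hTt⟩ := potPair_of_subgrad hM hR ρ hρK T hTY φ hφ
  refine ⟨hT, hmap, fun S hS hSmap => ?_⟩
  have hSY : ∀ᵐ x ∂ρ, S x ∈ Y := by
    have h := hμY
    rw [← hSmap] at h
    exact ae_of_ae_map hS.aemeasurable h
  have hac : Continuous a := hP.lipa.continuous
  have hbc : Continuous b := hP.lipb.continuous
  -- auxiliary functions
  set u : E d → ℝ := fun x => ‖x‖ ^ 2 - 2 * a x with hu
  set c : E d → ℝ := fun y => ‖y‖ ^ 2 - 2 * b y with hc
  have huc : Continuous u := by fun_prop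
  have hcc : Continuous c := by fun_prop
  obtain ⟨Cu, hCu⟩ := hK.exists_bound_of_continuousOn huc.continuousOn
  obtain ⟨Cc, hCc⟩ := hY.exists_bound_of_continuousOn hcc.continuousOn
  have hui : Integrable u ρ :=
    Integrable.of_bound huc.aestronglyMeasurable Cu (hρK.mono fun x hx => hCu x hx)
  have hcTi : Integrable (fun x => c (T x)) ρ :=
    Integrable.of_bound (hcc.measurable.comp hT).aestronglyMeasurable Cc
      (hTY.mono fun x hx => hCc _ hx)
  have hcSi : Integrable (fun x => c (S x)) ρ :=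
    Integrable.of_bound (hcc.measurable.comp hS).aestronglyMeasurable Cc
      (hSY.mono fun x hx => hCc _ hx)
  have hcTS : ∫ x, c (T x) ∂ρ = ∫ x, c (S x) ∂ρ := by
    rw [← integral_map hT.aemeasurable hcc.aestronglyMeasurable,
      ← integral_map hS.aemeasurable hcc.aestronglyMeasurable, hmap, hSmap]
  have hexp : ∀ x y : E d, ‖x - y‖ ^ 2 = ‖x‖ ^ 2 - 2 * ⟪x, y⟫ + ‖y‖ ^ 2 := fun x y =>
    norm_sub_sq_real x y
  have hTeq : ∀ᵐ x ∂ρ, ‖x - T x‖ ^ 2 = u x + c (T x) := by
    filter_upwards [hTt] with x hx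
    rw [hexp, ← hx]
    simp only [hu, hc]
    ring
  have hSle : ∀ᵐ x ∂ρ, u x + c (S x) ≤ ‖x - S x‖ ^ 2 := by
    filter_upwards [hSY] with x hx
    have := hP.fy x (S x) hx
    rw [hexp]
    simp only [hu, hc]
    linarith
  have hTi : Integrable (fun x => ‖x - T x‖ ^ 2) ρ :=
    (hui.add hcTi).congr (hTeq.mono fun x hx => hx.symm)
  have hSi : Integrable (fun x => ‖x - S x‖ ^ 2) ρ := by
    refine Integrable.of_bound
      (((measurable_id.sub hS).norm.pow_const 2).aestronglyMeasurable) (((M : ℝ) + R) ^ 2) ?_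
    filter_upwards [hρK, hSY] with x hx hy
    rw [Real.norm_eq_abs, abs_of_nonneg (by positivity)]
    have : ‖x - S x‖ ≤ (M : ℝ) + R := (norm_sub_le _ _).trans (add_le_add (hM x hx) (hR _ hy))
    exact pow_le_pow_left₀ (norm_nonneg _) this 2
  have hmain : ∫ x, ‖x - T x‖ ^ 2 ∂ρ ≤ ∫ x, ‖x - S x‖ ^ 2 ∂ρ := by
    calc ∫ x, ‖x - T x‖ ^ 2 ∂ρ = ∫ x, (u x + c (T x)) ∂ρ := integral_congr_ae hTeq
      _ = ∫ x, u x ∂ρ + ∫ x, c (T x) ∂ρ := integral_add hui hcTi
      _ = ∫ x, u x ∂ρ + ∫ x, c (S x) ∂ρ := by rw [hcTS]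
      _ = ∫ x, (u x + c (S x)) ∂ρ := (integral_add hui hcSi).symm
      _ ≤ ∫ x, ‖x - S x‖ ^ 2 ∂ρ := integral_mono_ae (hui.add hcSi) hSi hSle
  rw [← ofReal_integral_eq_lintegral_ofReal hTi (Filter.Eventually.of_forall fun x => by positivity),
    ← ofReal_integral_eq_lintegral_ofReal hSi (Filter.Eventually.of_forall fun x => by positivity)]
  exact ENNReal.ofReal_le_ofReal hmain

/-- The gradient of a convex function satisfies the subgradient inequality. -/
theorem subgrad_of_convexOn_hasGradientAt {K : Set (E d)} {φ : E d → ℝ} (hφ : ConvexOn ℝ K φ)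
    {x g : E d} (hx : x ∈ K) (hg : HasGradientAt φ g x) :
    ∀ z ∈ K, φ x + ⟪g, z - x⟫ ≤ φ z := by
  intro z hz
  -- the one-dimensional restriction
  set ψ : ℝ → ℝ := fun t => φ (x + t • (z - x)) with hψ
  have hline : ∀ t ∈ Set.Icc (0 : ℝ) 1, x + t • (z - x) ∈ K := by
    intro t ht
    have := hφ.1 hx hz (by linarith [ht.2] : (0 : ℝ) ≤ 1 - t) ht.1 (by ring)
    have e : x + t • (z - x) = (1 - t) • x + t • z := by
      rw [smul_sub, sub_smul, one_smul]; abel
    rw [e]; exact this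
  have hconv : ConvexOn ℝ (Set.Icc (0 : ℝ) 1) ψ := by
    refine ⟨convex_Icc 0 1, ?_⟩
    intro s hs t ht α β hα hβ hαβ
    have e : x + (α • s + β • t) • (z - x)
        = α • (x + s • (z - x)) + β • (x + t • (z - x)) := by
      have : x = (α + β) • x := by rw [hαβ, one_smul]
      simp only [smul_eq_mul, smul_add, add_smul, mul_smul]
      nth_rewrite 1 [this]
      rw [add_smul]
      abel
    simp only [hψ]
    rw [e]
    exact hφ.2 (hline s hs) (hline t ht) hα hβ hαβ
  have hder : HasDerivAt ψ ⟪g, z - x⟫ 0 := by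
    have h1 : HasDerivAt (fun t : ℝ => x + t • (z - x)) (z - x) 0 := by
      have := ((hasDerivAt_id (0 : ℝ)).smul_const (z - x)).const_add x
      simpa using this
    have h2 : HasFDerivAt φ (InnerProductSpace.toDual ℝ (E d) g) (x + (0 : ℝ) • (z - x)) := by
      simpa using hg.hasFDerivAt
    have := h2.comp_hasDerivAt (0 : ℝ) h1
    simpa [hψ, Function.comp_def] using this
  have hs := hconv.le_slope_of_hasDerivAt (x := 0) (y := 1) (by simp) (by simp) one_pos hder
  have : slope ψ 0 1 = φ z - φ x := by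
    simp [slope, hψ]
  rw [this] at hs
  linarith

end Vale.Agent.Lib.P074q
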