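import Vale.Agent.Lib.P074q.Local

open MeasureTheory ENNReal
open scoped NNReal RealInnerProductSpace

namespace Vale.Agent.Lib.P074q

variable {d : ℕ}

lemma abs_coord_le_norm (y : E d) (i : Fin d) : |y i| ≤ ‖y‖ := by
  have h1 : ‖y i‖ ≤ ‖y‖ := PiLp.norm_apply_le y i
  simpa using h1

lemma coord_diff_bound {Y : Set (E d)} {R : ℝ≥0} (hYR : ∀ y ∈ Y, ‖y‖ ≤ R) {t s : E d}
    (ht : t ∈ Y) (hs : s ∈ Y) (i : Fin d) : |t i - s i| ≤ 2 * R := by
  have b1 := (abs_coord_le_norm t i).trans (hYR _ ht)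
  have b2 := (abs_coord_le_norm s i).trans (hYR _ hs)
  have := abs_sub (t i) (s i)
  linarith

lemma coord_diff_integrable (ρ : Measure (E d)) [IsProbabilityMeasure ρ] {Y : Set (E d)} {R : ℝ≥0}
    (hYR : ∀ y ∈ Y, ‖y‖ ≤ R) {T S : E d → E d} (hT : Measurable T) (hS : Measurable S)
    (hTY : ∀ᵐ x ∂ρ, T x ∈ Y) (hSY : ∀ᵐ x ∂ρ, S x ∈ Y) (i : Fin d) :
    Integrable (fun x => |T x i - S x i|) ρ := by
  have m1 : Measurable (fun x => T x i) := (EuclideanSpace.proj i).continuous.measurable.comp hT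
  have m2 : Measurable (fun x => S x i) := (EuclideanSpace.proj i).continuous.measurable.comp hS
  refine Integrable.of_bound ((m1.sub m2).abs).aestronglyMeasurable (2 * R) ?_
  filter_upwards [hTY, hSY] with x h1 h3
  rw [Real.norm_eq_abs, abs_abs]
  exact coord_diff_bound hYR h1 h3 i

/-- elementary optimisation in `r`. -/
lemma opt_r {I w A0 C0 B0 : ℝ} (hI0 : 0 ≤ I) (hw : 0 ≤ w) (hA0 : 0 ≤ A0) (hC0 : 0 ≤ C0)
    (hIB : I ≤ B0)
    (h : ∀ r : ℝ, 0 < r → r ≤ 1 → r * I ≤ A0 * w + C0 * r ^ 2) :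
    I ≤ (A0 + C0 + B0) * Real.sqrt w := by
  have hB0 : 0 ≤ B0 := hI0.trans hIB
  rcases le_or_gt 1 w with h1 | h1
  · have hs : 1 ≤ Real.sqrt w := by
      rw [show (1 : ℝ) = Real.sqrt 1 by simp]
      exact Real.sqrt_le_sqrt h1
    nlinarith
  · rcases hw.eq_or_lt with h0 | h0
    · -- w = 0
      subst h0
      simp only [Real.sqrt_zero, mul_zero]
      by_contra hcon
      push_neg at hcon
      set r : ℝ := min 1 (I / (2 * (C0 + 1))) with hr
      have hpos : 0 < I / (2 * (C0 + 1)) := by positivity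
      have hr0 : 0 < r := lt_min one_pos hpos
      have hr1 : r ≤ 1 := min_le_left _ _
      have hr2 : r ≤ I / (2 * (C0 + 1)) := min_le_right _ _
      have h3 := h r hr0 hr1
      have h4 : I ≤ C0 * r := by
        have : r * I ≤ r * (C0 * r) := by nlinarith
        exact le_of_mul_le_mul_left this hr0
      have h5 : r * (2 * (C0 + 1)) ≤ I := by
        rwa [le_div_iff₀ (by positivity)] at hr2
      nlinarith
    · have hs0 : 0 < Real.sqrt w := Real.sqrt_pos.mpr h0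
      have hs1 : Real.sqrt w ≤ 1 := by
        rw [show (1 : ℝ) = Real.sqrt 1 by simp]
        exact Real.sqrt_le_sqrt h1.le
      have hsq : Real.sqrt w * Real.sqrt w = w := Real.mul_self_sqrt hw
      have h3 := h _ hs0 hs1
      have h4 : Real.sqrt w * I ≤ Real.sqrt w * ((A0 + C0) * Real.sqrt w) := by nlinarith
      have h5 := le_of_mul_le_mul_left h4 hs0
      nlinarith

/-- Core estimate: for maps with tight potential pairs, and every coupling `π` of the targets,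
`‖T - S‖_{L²(ρ)} ≤ C (∫ ‖y - y'‖ dπ)^{1/4}`. -/
theorem core_bound (K Y : Set (E d)) (M R : ℝ≥0) (hK : MeasurableSet K)
    (hKM : ∀ z ∈ K, ‖z‖ ≤ M) (hYR : ∀ y ∈ Y, ‖y‖ ≤ R)
    (hv0 : volume K ≠ 0) (hvT : volume K ≠ ⊤) :
    ∃ C : ℝ≥0, ∀ (T S : E d → E d) (a b a' b' : E d → ℝ), Measurable T → Measurable S →
      (∀ᵐ x ∂((volume K)⁻¹ • volume.restrict K), T x ∈ Y) →
      (∀ᵐ x ∂((volume K)⁻¹ • volume.restrict K), S x ∈ Y) →
      PotPair Y M R a b → PotPair Y M R a' b' →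
      Tight ((volume K)⁻¹ • volume.restrict K) T a b →
      Tight ((volume K)⁻¹ • volume.restrict K) S a' b' →
      ∀ π : Measure (E d × E d),
        π.fst = ((volume K)⁻¹ • volume.restrict K).map T →
        π.snd = ((volume K)⁻¹ • volume.restrict K).map S →
        eLpNorm (fun x => T x - S x) 2 ((volume K)⁻¹ • volume.restrict K) ≤
          C * (∫⁻ p, ENNReal.ofReal ‖p.1 - p.2‖ ∂π) ^ (1 / 4 : ℝ) := by
  set ρ : Measure (E d) := (volume K)⁻¹ • volume.restrict K with hρ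
  have hprob : IsProbabilityMeasure ρ := by
    constructor
    simp [hρ, ENNReal.inv_mul_cancel hv0 hvT]
  have hρK : ∀ᵐ x ∂ρ, x ∈ K := by
    have h0 : ∀ᵐ x ∂(volume.restrict K), x ∈ K := ae_restrict_mem hK
    exact Measure.ae_smul_measure h0 _
  set C0 : ℝ := (volume K).toReal⁻¹ *
    (R * (volume (Metric.closedBall (0 : E d) (M + 2))).toReal) with hC0
  have hC0nn : 0 ≤ C0 := by positivity
  set A : ℝ := 2 * M + C0 + 2 * R with hA
  have hAnn : 0 ≤ A := by positivity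
  set B : ℝ := 2 * R * (d * A) with hB
  have hBnn : 0 ≤ B := by positivity
  refine ⟨Real.toNNReal (Real.sqrt B + 1), ?_⟩
  intro T S a b a' b' hT hS hTY hSY h1 h2 t1 t2 π hπ1 hπ2
  set W : ℝ≥0∞ := ∫⁻ p, ENNReal.ofReal ‖p.1 - p.2‖ ∂π with hW
  have hCpos : (0 : ℝ) < Real.sqrt B + 1 := by positivity
  by_cases hfin : W = ⊤
  · rw [hfin, ENNReal.top_rpow_of_pos (by norm_num), ENNReal.mul_top]
    · exact le_top
    · simp only [ne_eq, ENNReal.coe_eq_zero, Real.toNNReal_eq_zero, not_le]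
      exact hCpos
  set w : ℝ := W.toReal with hw
  have hwnn : 0 ≤ w := ENNReal.toReal_nonneg
  have hWw : W = ENNReal.ofReal w := (ENNReal.ofReal_toReal hfin).symm
  have hgap := gap_integral ρ hKM hYR hρK hT hS hTY hSY h1 h2 t1 t2 π hπ1 hπ2 hfin
  -- coordinatewise bound
  have hcoord : ∀ i : Fin d, ∫ x, |T x i - S x i| ∂ρ ≤ A * Real.sqrt w := by
    intro i
    have iV := coord_diff_integrable ρ hYR hT hS hTY hSY i
    have hI0 : 0 ≤ ∫ x, |T x i - S x i| ∂ρ := integral_nonneg (fun x => abs_nonneg _)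
    have hIB : ∫ x, |T x i - S x i| ∂ρ ≤ 2 * R := by
      have : ∫ x, |T x i - S x i| ∂ρ ≤ ∫ _x, (2 * (R : ℝ)) ∂ρ := by
        apply integral_mono_ae iV (integrable_const _)
        filter_upwards [hTY, hSY] with x h3 h4
        exact coord_diff_bound hYR h3 h4 i
      simpa using this
    refine opt_r hI0 hwnn (by positivity : (0 : ℝ) ≤ 2 * M) hC0nn hIB ?_
    intro r hr0 hr1
    have h3 := local_bound hK hKM hYR hv0 hvT hT hS hTY hSY h2 t2 i hr0 hr1
    have e : (volume K).toReal⁻¹ *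
        (R * r ^ 2 * (volume (Metric.closedBall (0 : E d) (M + 2))).toReal) = C0 * r ^ 2 := by
      simp only [hC0]; ring
    rw [e] at h3
    linarith
  -- the integral of the sum
  have iSum : Integrable (fun x => 2 * (R : ℝ) * ∑ i : Fin d, |T x i - S x i|) ρ :=
    (integrable_finset_sum _ (fun i _ => coord_diff_integrable ρ hYR hT hS hTY hSY i)).const_mul _
  have hSumInt : ∫ x, 2 * (R : ℝ) * ∑ i : Fin d, |T x i - S x i| ∂ρ ≤ B * Real.sqrt w := by
    rw [integral_const_mul,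
      integral_finset_sum _ (fun i _ => coord_diff_integrable ρ hYR hT hS hTY hSY i)]
    have : ∑ i : Fin d, ∫ x, |T x i - S x i| ∂ρ ≤ ∑ _i : Fin d, A * Real.sqrt w :=
      Finset.sum_le_sum (fun i _ => hcoord i)
    simp only [Finset.sum_const, Finset.card_univ, Fintype.card_fin, nsmul_eq_mul] at this
    have hR : (0 : ℝ) ≤ 2 * R := by positivity
    calc 2 * (R : ℝ) * ∑ i : Fin d, ∫ x, |T x i - S x i| ∂ρ
        ≤ 2 * (R : ℝ) * (d * (A * Real.sqrt w)) := mul_le_mul_of_nonneg_left this hR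
      _ = B * Real.sqrt w := by simp only [hB]; ring
  -- pointwise bound
  have hpt : ∀ᵐ x ∂ρ, ‖T x - S x‖ₑ ^ (2 : ℝ) ≤
      ENNReal.ofReal (2 * (R : ℝ) * ∑ i : Fin d, |T x i - S x i|) := by
    filter_upwards [hTY, hSY] with x h3 h4
    have e1 : ‖T x - S x‖ₑ ^ (2 : ℝ) = ENNReal.ofReal (‖T x - S x‖ ^ 2) := by
      rw [← ofReal_norm_eq_enorm, ENNReal.ofReal_rpow_of_nonneg (norm_nonneg _) (by norm_num)]
      norm_num
    rw [e1]
    apply ENNReal.ofReal_le_ofReal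
    rw [EuclideanSpace.norm_sq_eq, Finset.mul_sum]
    apply Finset.sum_le_sum
    intro i _
    have h5 := coord_diff_bound hYR h3 h4 i
    have e2 : ‖(T x - S x) i‖ ^ 2 = |T x i - S x i| * |T x i - S x i| := by
      rw [Real.norm_eq_abs]
      simp [sq]
    rw [e2]
    exact mul_le_mul_of_nonneg_right h5 (abs_nonneg _)
  have hlint : ∫⁻ x, ‖T x - S x‖ₑ ^ (2 : ℝ) ∂ρ ≤ ENNReal.ofReal (B * Real.sqrt w) := by
    calc ∫⁻ x, ‖T x - S x‖ₑ ^ (2 : ℝ) ∂ρ
        ≤ ∫⁻ x, ENNReal.ofReal (2 * (R : ℝ) * ∑ i : Fin d, |T x i - S x i|) ∂ρ :=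
          lintegral_mono_ae hpt
      _ = ENNReal.ofReal (∫ x, 2 * (R : ℝ) * ∑ i : Fin d, |T x i - S x i| ∂ρ) := by
          rw [ofReal_integral_eq_lintegral_ofReal iSum]
          exact Filter.Eventually.of_forall (fun x => by positivity)
      _ ≤ ENNReal.ofReal (B * Real.sqrt w) := ENNReal.ofReal_le_ofReal hSumInt
  rw [eLpNorm_eq_lintegral_rpow_enorm (by norm_num) (by norm_num)]
  simp only [ENNReal.toReal_ofNat]
  calc (∫⁻ x, ‖T x - S x‖ₑ ^ (2 : ℝ) ∂ρ) ^ (1 / 2 : ℝ)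
      ≤ (ENNReal.ofReal (B * Real.sqrt w)) ^ (1 / 2 : ℝ) :=
        ENNReal.rpow_le_rpow hlint (by norm_num)
    _ = ENNReal.ofReal ((B * Real.sqrt w) ^ (1 / 2 : ℝ)) :=
        ENNReal.ofReal_rpow_of_nonneg (by positivity) (by norm_num)
    _ = ENNReal.ofReal (Real.sqrt B * w ^ (1 / 4 : ℝ)) := by
        congr 1
        rw [Real.mul_rpow hBnn (Real.sqrt_nonneg _), ← Real.sqrt_eq_rpow, Real.sqrt_eq_rpow w,
          ← Real.rpow_mul hwnn]
        norm_num
    _ ≤ ENNReal.ofReal ((Real.sqrt B + 1) * w ^ (1 / 4 : ℝ)) := by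
        apply ENNReal.ofReal_le_ofReal
        have : 0 ≤ w ^ (1 / 4 : ℝ) := Real.rpow_nonneg hwnn _
        nlinarith
    _ = (Real.toNNReal (Real.sqrt B + 1) : ℝ≥0∞) * W ^ (1 / 4 : ℝ) := by
        rw [ENNReal.ofReal_mul hCpos.le, hWw,
          ENNReal.ofReal_rpow_of_nonneg hwnn (by norm_num)]
        rfl

end Vale.Agent.Lib.P074q
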