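import Vale.Agent.Lib.P074q.Defs

open MeasureTheory ENNReal
open scoped NNReal RealInnerProductSpace

namespace Vale.Agent.Lib.P074q

variable {d : ℕ} {A : Set (E d)} {f : E d → ℝ} {M : ℝ≥0}

lemma conj_bddAbove (hA : ∀ z ∈ A, ‖z‖ ≤ M) (hf : ∃ c, ∀ z ∈ A, c ≤ f z) (x : E d) :
    BddAbove ((fun y => ⟪x, y⟫ - f y) '' A) := by
  obtain ⟨c, hc⟩ := hf
  refine ⟨‖x‖ * M - c, ?_⟩
  rintro _ ⟨y, hy, rfl⟩
  have h1 : ⟪x, y⟫ ≤ ‖x‖ * ‖y‖ := real_inner_le_norm x y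
  have h2 : ‖x‖ * ‖y‖ ≤ ‖x‖ * M := mul_le_mul_of_nonneg_left (hA y hy) (norm_nonneg x)
  have h3 := hc y hy
  simp only
  linarith

lemma le_conj (hA : ∀ z ∈ A, ‖z‖ ≤ M) (hf : ∃ c, ∀ z ∈ A, c ≤ f z) (x : E d) {y : E d}
    (hy : y ∈ A) : ⟪x, y⟫ - f y ≤ conj A f x :=
  le_csSup (conj_bddAbove hA hf x) (Set.mem_image_of_mem (fun y => ⟪x, y⟫ - f y) hy)

lemma conj_le (hne : A.Nonempty) {x : E d} {c : ℝ} (h : ∀ y ∈ A, ⟪x, y⟫ - f y ≤ c) :
    conj A f x ≤ c := by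
  refine csSup_le (hne.image _) ?_
  rintro _ ⟨y, hy, rfl⟩
  exact h y hy

lemma conj_lipschitz (hne : A.Nonempty) (hA : ∀ z ∈ A, ‖z‖ ≤ M) (hf : ∃ c, ∀ z ∈ A, c ≤ f z) :
    LipschitzWith M (conj A f) := by
  refine LipschitzWith.of_le_add_mul M ?_
  intro x x'
  refine conj_le hne ?_
  intro y hy
  have h0 := le_conj hA hf x' hy
  have h1 : ⟪x, y⟫ = ⟪x', y⟫ + ⟪x - x', y⟫ := by
    rw [inner_sub_left]; ring
  have h2 : ⟪x - x', y⟫ ≤ ‖x - x'‖ * ‖y‖ := real_inner_le_norm _ _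
  have h3 : ‖x - x'‖ * ‖y‖ ≤ ‖x - x'‖ * M :=
    mul_le_mul_of_nonneg_left (hA y hy) (norm_nonneg _)
  rw [dist_eq_norm]
  nlinarith

lemma conj_mid (hne : A.Nonempty) (hA : ∀ z ∈ A, ‖z‖ ≤ M) (hf : ∃ c, ∀ z ∈ A, c ≤ f z)
    (x w : E d) : 2 * conj A f x ≤ conj A f (x + w) + conj A f (x - w) := by
  have h : conj A f x ≤ (conj A f (x + w) + conj A f (x - w)) / 2 := by
    refine conj_le hne ?_
    intro y hy
    have h1 := le_conj hA hf (x + w) hy
    have h2 := le_conj hA hf (x - w) hy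
    rw [inner_add_left] at h1
    rw [inner_sub_left] at h2
    linarith
  linarith

/-- If `f` is continuous and `A` compact nonempty, the supremum is attained. -/
lemma exists_conj_eq (hA : IsCompact A) (hne : A.Nonempty) (hf : ContinuousOn f A) (x : E d) :
    ∃ y ∈ A, conj A f x = ⟪x, y⟫ - f y := by
  have hc : ContinuousOn (fun y => ⟪x, y⟫ - f y) A := by
    refine ContinuousOn.sub ?_ hf
    exact (continuous_const.inner continuous_id).continuousOn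
  obtain ⟨y, hy, hmax⟩ := hA.exists_isMaxOn hne hc
  refine ⟨y, hy, le_antisymm (conj_le hne (fun z hz => hmax hz)) ?_⟩
  refine le_csSup ⟨⟪x, y⟫ - f y, ?_⟩ (Set.mem_image_of_mem (fun y => ⟪x, y⟫ - f y) hy)
  rintro _ ⟨z, hz, rfl⟩
  exact hmax hz

/-- `conj A` is antitone (only the values on `A` matter). -/
lemma conj_anti {g : E d → ℝ} (hne : A.Nonempty) (hA : ∀ z ∈ A, ‖z‖ ≤ M)
    (hf : ∃ c, ∀ z ∈ A, c ≤ f z) (hfg : ∀ z ∈ A, f z ≤ g z) (x : E d) :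
    conj A g x ≤ conj A f x :=
  conj_le hne (fun y hy => (sub_le_sub_left (hfg y hy) _).trans (le_conj hA hf x hy))

/-- sup-norm continuity: if `|f - g| ≤ ε` on `A` then `|conj A f - conj A g| ≤ ε`. -/
lemma abs_conj_sub_conj_le {g : E d → ℝ} (hne : A.Nonempty) (hA : ∀ z ∈ A, ‖z‖ ≤ M)
    (hf : ∃ c, ∀ z ∈ A, c ≤ f z) {ε : ℝ} (hfg : ∀ z ∈ A, |f z - g z| ≤ ε) (x : E d) :
    |conj A f x - conj A g x| ≤ ε := by
  have hg : ∃ c, ∀ z ∈ A, c ≤ g z := by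
    obtain ⟨c, hc⟩ := hf
    refine ⟨c - ε, fun z hz => ?_⟩
    have h1 := hc z hz
    have h2 := (abs_sub_le_iff.1 (hfg z hz)).1
    linarith
  have h1 : conj A f x ≤ conj A g x + ε := by
    refine conj_le hne ?_
    intro y hy
    have h1 := le_conj hA hg x hy
    have h2 := (abs_sub_le_iff.1 (hfg y hy)).2
    linarith
  have h2 : conj A g x ≤ conj A f x + ε := by
    refine conj_le hne ?_
    intro y hy
    have h1 := le_conj hA hf x hy
    have h2 := (abs_sub_le_iff.1 (hfg y hy)).1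
    linarith
  rw [abs_sub_le_iff]
  constructor <;> linarith

/-- `conj A (f + c) = conj A f - c`. -/
lemma conj_add_const (hne : A.Nonempty) (hA : ∀ z ∈ A, ‖z‖ ≤ M)
    (hf : ∃ c, ∀ z ∈ A, c ≤ f z) (c : ℝ) (x : E d) :
    conj A (fun y => f y + c) x = conj A f x - c := by
  have hf' : ∃ c', ∀ z ∈ A, c' ≤ (fun y => f y + c) z := by
    obtain ⟨c0, hc0⟩ := hf
    refine ⟨c0 + c, fun z hz => ?_⟩
    have := hc0 z hz
    simp only
    linarith
  apply le_antisymm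
  · refine conj_le hne ?_
    intro y hy
    have h1 := le_conj hA hf x hy
    linarith
  · have h : conj A f x ≤ conj A (fun y => f y + c) x + c := by
      refine conj_le hne ?_
      intro y hy
      have h1 := le_conj hA hf' x hy
      linarith
    linarith

end Vale.Agent.Lib.P074q
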