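import Mathlib

/-!
Auxiliary definitions for the Hölder-1/4 stability estimate of quadratic optimal transport maps.
-/

open MeasureTheory ENNReal
open scoped NNReal RealInnerProductSpace

namespace Vale.Agent.Lib.P074q

/-- Euclidean space of dimension `d`, with the Euclidean norm. -/
abbrev E (d : ℕ) := EuclideanSpace ℝ (Fin d)

/-- Legendre-type conjugate of `f` over the set `A`: `x ↦ sup_{y ∈ A} (⟪x,y⟫ - f y)`. -/
noncomputable def conj {d : ℕ} (A : Set (E d)) (f : E d → ℝ) (x : E d) : ℝ :=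
  sSup ((fun y => ⟪x, y⟫ - f y) '' A)

/-- A pair of potentials: Fenchel–Young inequality on `E × Y`, Lipschitz bounds,
midpoint convexity of the first potential. -/
structure PotPair {d : ℕ} (Y : Set (E d)) (M R : ℝ≥0) (a b : E d → ℝ) : Prop where
  fy : ∀ x, ∀ y ∈ Y, ⟪x, y⟫ ≤ a x + b y
  lipa : LipschitzWith R a
  lipb : LipschitzWith M b
  mid : ∀ x w, 2 * a x ≤ a (x + w) + a (x - w)

/-- Equality in Fenchel–Young along the graph of `T`, `ρ`-a.e. -/
def Tight {d : ℕ} (ρ : Measure (E d)) (T : E d → E d) (a b : E d → ℝ) : Prop :=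
  ∀ᵐ x ∂ρ, a x + b (T x) = ⟪x, T x⟫

/-- The dual (Kantorovich) functional. -/
noncomputable def J {d : ℕ} (ρ μ : Measure (E d)) (Y : Set (E d)) (b : E d → ℝ) : ℝ :=
  ∫ x, conj Y b x ∂ρ + ∫ y, b y ∂μ

end Vale.Agent.Lib.P074q
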