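import Vale.Agent.Lib.P074q.Defs

open MeasureTheory ENNReal
open scoped NNReal RealInnerProductSpace

namespace Vale.Agent.Lib.P074q

variable {d : ℕ}

lemma gap_lip_bound {L : ℝ≥0} {f : E d → ℝ} (hf : LipschitzWith L f) (x : E d) :
    |f x| ≤ |f 0| + L * ‖x‖ := by
  have h := hf.dist_le_mul x 0
  rw [Real.dist_eq, dist_zero_right] at h
  have h2 : |f x| ≤ |f x - f 0| + |f 0| := by
    have := abs_add_le (f x - f 0) (f 0)
    simpa using this
  linarith

lemma gap_integrable_lip_comp (ρ : Measure (E d)) [IsProbabilityMeasure ρ] {Y : Set (E d)}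
    {R L : ℝ≥0} (hYR : ∀ y ∈ Y, ‖y‖ ≤ R) {T : E d → E d} (hT : Measurable T)
    (hTY : ∀ᵐ x ∂ρ, T x ∈ Y) {f : E d → ℝ} (hf : LipschitzWith L f) :
    Integrable (fun x => f (T x)) ρ := by
  refine Integrable.of_bound ((hf.continuous.measurable.comp hT).aestronglyMeasurable)
    (|f 0| + L * R) ?_
  filter_upwards [hTY] with x hx
  rw [Real.norm_eq_abs]
  refine (gap_lip_bound hf (T x)).trans ?_
  have := hYR _ hx
  gcongr

lemma gap_integrable_inner (ρ : Measure (E d)) [IsProbabilityMeasure ρ] {K Y : Set (E d)}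
    {M R : ℝ≥0} (hKM : ∀ z ∈ K, ‖z‖ ≤ M) (hYR : ∀ y ∈ Y, ‖y‖ ≤ R) (hρK : ∀ᵐ x ∂ρ, x ∈ K)
    {T : E d → E d} (hT : Measurable T) (hTY : ∀ᵐ x ∂ρ, T x ∈ Y) :
    Integrable (fun x => ⟪x, T x⟫) ρ := by
  refine Integrable.of_bound ((measurable_id.inner hT).aestronglyMeasurable) (M * R) ?_
  filter_upwards [hTY, hρK] with x hx hxK
  rw [Real.norm_eq_abs]
  refine (abs_real_inner_le_norm _ _).trans ?_
  have h1 := hYR _ hx
  have h2 := hKM _ hxK
  gcongr

/-- Integrability of the gap function. -/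
theorem gap_integrable (ρ : Measure (E d)) [IsProbabilityMeasure ρ] {K Y : Set (E d)} {M R : ℝ≥0}
    (hKM : ∀ z ∈ K, ‖z‖ ≤ M) (hYR : ∀ y ∈ Y, ‖y‖ ≤ R) (hρK : ∀ᵐ x ∂ρ, x ∈ K)
    {T : E d → E d} (hT : Measurable T) (hTY : ∀ᵐ x ∂ρ, T x ∈ Y)
    {a' b' : E d → ℝ} (h2 : PotPair Y M R a' b') :
    Integrable (fun x => a' x + b' (T x) - ⟪x, T x⟫) ρ := by
  have i1 : Integrable (fun x => a' x) ρ :=
    gap_integrable_lip_comp ρ hKM measurable_id hρK h2.lipa
  have i2 : Integrable (fun x => b' (T x)) ρ := gap_integrable_lip_comp ρ hYR hT hTY h2.lipb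
  have i3 := gap_integrable_inner ρ hKM hYR hρK hT hTY
  exact (i1.add i2).sub i3

/-- The gap estimate: `∫ G dρ ≤ 2 M ∫ ‖y - y'‖ dπ` for every coupling `π` of the two targets.
Proof: a.e. `G x ≤ G x + G' x = h (T x) - h (S x)` with `h = b' - b` (`2M`-Lipschitz), where
`G' x = a x + b (S x) - ⟪x, S x⟫ ≥ 0`; then `∫ h∘T dρ - ∫ h∘S dρ = ∫ (h p.1 - h p.2) dπ`. -/
theorem gap_integral (ρ : Measure (E d)) [IsProbabilityMeasure ρ] {K Y : Set (E d)} {M R : ℝ≥0}
    (hKM : ∀ z ∈ K, ‖z‖ ≤ M) (hYR : ∀ y ∈ Y, ‖y‖ ≤ R) (hρK : ∀ᵐ x ∂ρ, x ∈ K)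
    {T S : E d → E d} (hT : Measurable T) (hS : Measurable S)
    (hTY : ∀ᵐ x ∂ρ, T x ∈ Y) (hSY : ∀ᵐ x ∂ρ, S x ∈ Y)
    {a b a' b' : E d → ℝ} (h1 : PotPair Y M R a b) (h2 : PotPair Y M R a' b')
    (t1 : Tight ρ T a b) (t2 : Tight ρ S a' b')
    (π : Measure (E d × E d)) (hπ1 : π.fst = ρ.map T) (hπ2 : π.snd = ρ.map S)
    (hfin : ∫⁻ p, ENNReal.ofReal ‖p.1 - p.2‖ ∂π ≠ ⊤) :
    ∫ x, (a' x + b' (T x) - ⟪x, T x⟫) ∂ρ ≤
      2 * M * (∫⁻ p, ENNReal.ofReal ‖p.1 - p.2‖ ∂π).toReal := by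
  set h : E d → ℝ := fun y => b' y - b y with hh
  have hhm : Measurable h := h2.lipb.continuous.measurable.sub h1.lipb.continuous.measurable
  have hhT : Integrable (fun x => h (T x)) ρ :=
    (gap_integrable_lip_comp ρ hYR hT hTY h2.lipb).sub
      (gap_integrable_lip_comp ρ hYR hT hTY h1.lipb)
  have hhS : Integrable (fun x => h (S x)) ρ :=
    (gap_integrable_lip_comp ρ hYR hS hSY h2.lipb).sub
      (gap_integrable_lip_comp ρ hYR hS hSY h1.lipb)
  -- step 1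
  have step1 : ∫ x, (a' x + b' (T x) - ⟪x, T x⟫) ∂ρ ≤ ∫ x, (h (T x) - h (S x)) ∂ρ := by
    apply integral_mono_ae (gap_integrable ρ hKM hYR hρK hT hTY h2) (hhT.sub hhS)
    filter_upwards [t1, t2, hSY] with x e1 e2 hx
    have h3 := h1.fy x (S x) hx
    show a' x + b' (T x) - ⟪x, T x⟫ ≤ (b' (T x) - b (T x)) - (b' (S x) - b (S x))
    linarith
  -- step 2 : transfer to the coupling
  have iT : Integrable h (π.map Prod.fst) := by
    have : π.map Prod.fst = ρ.map T := hπ1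
    rw [this]
    exact (integrable_map_measure hhm.aestronglyMeasurable hT.aemeasurable).mpr hhT
  have iS : Integrable h (π.map Prod.snd) := by
    have : π.map Prod.snd = ρ.map S := hπ2
    rw [this]
    exact (integrable_map_measure hhm.aestronglyMeasurable hS.aemeasurable).mpr hhS
  have iT' : Integrable (fun p : E d × E d => h p.1) π :=
    (integrable_map_measure hhm.aestronglyMeasurable measurable_fst.aemeasurable).mp iT
  have iS' : Integrable (fun p : E d × E d => h p.2) π :=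
    (integrable_map_measure hhm.aestronglyMeasurable measurable_snd.aemeasurable).mp iS
  have eT : ∫ x, h (T x) ∂ρ = ∫ p, h p.1 ∂π := by
    rw [← integral_map hT.aemeasurable hhm.aestronglyMeasurable, ← hπ1]
    exact integral_map measurable_fst.aemeasurable hhm.aestronglyMeasurable
  have eS : ∫ x, h (S x) ∂ρ = ∫ p, h p.2 ∂π := by
    rw [← integral_map hS.aemeasurable hhm.aestronglyMeasurable, ← hπ2]
    exact integral_map measurable_snd.aemeasurable hhm.aestronglyMeasurable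
  have step2 : ∫ x, (h (T x) - h (S x)) ∂ρ = ∫ p, (h p.1 - h p.2) ∂π := by
    rw [integral_sub hhT hhS, integral_sub iT' iS', eT, eS]
  -- step 3 : Lipschitz bound
  have hnm : Measurable (fun p : E d × E d => ‖p.1 - p.2‖) :=
    (measurable_fst.sub measurable_snd).norm
  have inorm : Integrable (fun p : E d × E d => ‖p.1 - p.2‖) π := by
    refine ⟨hnm.aestronglyMeasurable, ?_⟩
    rw [hasFiniteIntegral_iff_norm]
    simp only [norm_norm]
    exact lt_top_iff_ne_top.mpr hfin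
  have hlip : ∀ y y' : E d, h y - h y' ≤ 2 * M * ‖y - y'‖ := by
    intro y y'
    have l1 := h2.lipb.dist_le_mul y y'
    have l2 := h1.lipb.dist_le_mul y y'
    rw [Real.dist_eq, dist_eq_norm] at l1 l2
    have l3 := le_abs_self (b' y - b' y')
    have l4 := neg_abs_le (b y - b y')
    simp only [hh]
    linarith
  have step3 : ∫ p, (h p.1 - h p.2) ∂π ≤ ∫ p, 2 * (M : ℝ) * ‖p.1 - p.2‖ ∂π := by
    apply integral_mono (iT'.sub iS') (inorm.const_mul _)
    intro p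
    exact hlip p.1 p.2
  have step4 : ∫ p, 2 * (M : ℝ) * ‖p.1 - p.2‖ ∂π
      = 2 * M * (∫⁻ p, ENNReal.ofReal ‖p.1 - p.2‖ ∂π).toReal := by
    rw [integral_const_mul]
    congr 1
    exact integral_eq_lintegral_of_nonneg_ae
      (Filter.Eventually.of_forall (fun p => norm_nonneg _)) hnm.aestronglyMeasurable
  calc ∫ x, (a' x + b' (T x) - ⟪x, T x⟫) ∂ρ ≤ ∫ x, (h (T x) - h (S x)) ∂ρ := step1
    _ = ∫ p, (h p.1 - h p.2) ∂π := step2
    _ ≤ ∫ p, 2 * (M : ℝ) * ‖p.1 - p.2‖ ∂π := step3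
    _ = 2 * M * (∫⁻ p, ENNReal.ofReal ‖p.1 - p.2‖ ∂π).toReal := step4

end Vale.Agent.Lib.P074q
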