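import Vale.Agent.Lib.P074q.Defs
import Vale.Agent.Lib.P074b.Defs
import Vale.Agent.Lib.P074c.Defs

open MeasureTheory ENNReal
open scoped NNReal RealInnerProductSpace

namespace Vale.Agent.Lib.P074q

variable {d : ℕ}

lemma wass_one_eq (μ ν : Measure (E d)) :
    Vale.Agent.Lib.P074c.Wass 1 μ ν =
      ⨅ π : Measure (E d × E d), ⨅ _ : π.fst = μ ∧ π.snd = ν,
        ∫⁻ p, ENNReal.ofReal ‖p.1 - p.2‖ ∂π := by
  unfold Vale.Agent.Lib.P074c.Wass
  simp only [Real.rpow_one, div_one, ENNReal.rpow_one]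

lemma iInf₂_rpow {ι : Type*} {P : ι → Prop} (f : ι → ℝ≥0∞) {α : ℝ} (hα : 0 < α) :
    (⨅ i, ⨅ _ : P i, f i) ^ α = ⨅ i, ⨅ _ : P i, f i ^ α := by
  have h := (ENNReal.orderIsoRpow α hα).map_iInf (fun i => ⨅ _ : P i, f i)
  simp only [ENNReal.orderIsoRpow_apply] at h
  rw [h]
  congr 1
  funext i
  have h2 := (ENNReal.orderIsoRpow α hα).map_iInf (fun _ : P i => f i)
  simpa only [ENNReal.orderIsoRpow_apply] using h2

/-- Passing from all couplings to the infimum defining `W₁`. -/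
theorem le_wass_one_of_forall_coupling {μ ν : Measure (E d)} [IsProbabilityMeasure μ]
    [IsProbabilityMeasure ν] {A : ℝ≥0∞} {C : ℝ≥0} {α : ℝ}
    (hα : 0 < α)
    (h : ∀ π : Measure (E d × E d), π.fst = μ → π.snd = ν →
      A ≤ C * (∫⁻ p, ENNReal.ofReal ‖p.1 - p.2‖ ∂π) ^ α) :
    A ≤ C * Vale.Agent.Lib.P074c.Wass 1 μ ν ^ α := by
  by_cases hC : C = 0
  · have h0 := h (μ.prod ν) (by simp) (by simp)
    rw [hC] at h0
    simp only [ENNReal.coe_zero, zero_mul, nonpos_iff_eq_zero] at h0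
    rw [h0]
    exact zero_le
  · have hC0 : (C : ℝ≥0∞) ≠ 0 := by simpa using hC
    rw [wass_one_eq, iInf₂_rpow _ hα, ENNReal.mul_iInf_of_ne hC0 ENNReal.coe_ne_top]
    refine le_iInf (fun π => ?_)
    rw [ENNReal.mul_iInf_of_ne hC0 ENNReal.coe_ne_top]
    exact le_iInf (fun hπ => h π hπ.1 hπ.2)

/-- `W₁ ≤ W₂` for probability measures. -/
theorem wass_one_le_W2 {μ ν : Measure (E d)} [IsProbabilityMeasure μ] :
    Vale.Agent.Lib.P074c.Wass 1 μ ν ≤ Vale.Agent.Lib.P074b.W2 μ ν := by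
  rw [wass_one_eq]
  unfold Vale.Agent.Lib.P074b.W2
  rw [iInf₂_rpow _ (by norm_num : (0 : ℝ) < 1 / 2)]
  refine le_iInf (fun π => le_iInf (fun hπ => ?_))
  refine iInf₂_le_of_le π hπ ?_
  have hprob : IsProbabilityMeasure π := by
    constructor
    have h1 : π.fst Set.univ = 1 := by rw [hπ.1]; exact measure_univ
    rwa [Measure.fst_univ] at h1
  have hm : AEStronglyMeasurable (fun p : E d × E d => p.1 - p.2) π :=
    (measurable_fst.sub measurable_snd).aestronglyMeasurable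
  have key := eLpNorm_le_eLpNorm_of_exponent_le (μ := π) (p := 1) (q := 2)
    (by norm_num) hm
  rw [eLpNorm_one_eq_lintegral_enorm,
    eLpNorm_eq_lintegral_rpow_enorm_toReal (by norm_num) (by norm_num)] at key
  have e1 : ∀ p : E d × E d, ENNReal.ofReal ‖p.1 - p.2‖ = ‖p.1 - p.2‖ₑ := fun p =>
    ofReal_norm _
  have e2 : ∀ p : E d × E d, ENNReal.ofReal (‖p.1 - p.2‖ ^ 2) = ‖p.1 - p.2‖ₑ ^ ((2 : ℝ≥0∞).toReal) := by
    intro p
    rw [← ofReal_norm, ENNReal.ofReal_pow (norm_nonneg _)]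
    simp
  simp only [e1, e2]
  simpa using key

end Vale.Agent.Lib.P074q
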