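import Vale.Agent.Lib.P074q.SecondDiff
import Vale.Agent.Lib.P074q.Gap

open MeasureTheory ENNReal
open scoped NNReal RealInnerProductSpace

namespace Vale.Agent.Lib.P074q

variable {d : ℕ}

lemma inner_single_left_real (i : Fin d) (r : ℝ) (y : E d) :
    ⟪(EuclideanSpace.single i r : E d), y⟫ = r * y i := by
  simp [EuclideanSpace.inner_single_left]

/-- Pointwise: at a point `x` where `T x ∈ Y`, `S x ∈ Y` and `(a', b')` is tight for `S`,
`r |T x i - S x i| ≤ G x + Δ²_{r e_i} a' (x)`. -/
theorem local_pointwise {Y : Set (E d)} {M R : ℝ≥0} {a' b' : E d → ℝ} (h2 : PotPair Y M R a' b')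
    {x t s : E d} (ht : t ∈ Y) (hs : s ∈ Y) (hts : a' x + b' s = ⟪x, s⟫) (i : Fin d) {r : ℝ}
    (hr : 0 ≤ r) :
    r * |t i - s i| ≤ (a' x + b' t - ⟪x, t⟫) +
      (a' (x + EuclideanSpace.single i r) + a' (x - EuclideanSpace.single i r) - 2 * a' x) := by
  have f1 := h2.fy (x + EuclideanSpace.single i r) t ht
  have f2 := h2.fy (x - EuclideanSpace.single i r) t ht
  have f3 := h2.fy (x + EuclideanSpace.single i r) s hs
  have f4 := h2.fy (x - EuclideanSpace.single i r) s hs
  rw [inner_add_left, inner_single_left_real] at f1 f3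
  rw [inner_sub_left, inner_single_left_real] at f2 f4
  rcases abs_cases (t i - s i) with ⟨h, _⟩ | ⟨h, _⟩
  · rw [h]; nlinarith
  · rw [h]; nlinarith

/-- Integrated version with respect to the uniform measure on `K`. -/
theorem local_bound {K Y : Set (E d)} {M R : ℝ≥0} (hK : MeasurableSet K)
    (hKM : ∀ z ∈ K, ‖z‖ ≤ M) (hYR : ∀ y ∈ Y, ‖y‖ ≤ R)
    (hv0 : volume K ≠ 0) (hvT : volume K ≠ ⊤)
    {T S : E d → E d} (hT : Measurable T) (hS : Measurable S)
    (hTY : ∀ᵐ x ∂((volume K)⁻¹ • volume.restrict K), T x ∈ Y)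
    (hSY : ∀ᵐ x ∂((volume K)⁻¹ • volume.restrict K), S x ∈ Y)
    {a' b' : E d → ℝ} (h2 : PotPair Y M R a' b')
    (t2 : Tight ((volume K)⁻¹ • volume.restrict K) S a' b') (i : Fin d) {r : ℝ}
    (hr0 : 0 < r) (hr1 : r ≤ 1) :
    r * ∫ x, |T x i - S x i| ∂((volume K)⁻¹ • volume.restrict K) ≤
      ∫ x, (a' x + b' (T x) - ⟪x, T x⟫) ∂((volume K)⁻¹ • volume.restrict K) +
      (volume K).toReal⁻¹ *
        (R * r ^ 2 * (volume (Metric.closedBall (0 : E d) (M + 2))).toReal) := by
  set ρ : Measure (E d) := (volume K)⁻¹ • volume.restrict K with hρ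
  have : IsProbabilityMeasure ρ := by
    constructor
    simp [hρ, ENNReal.inv_mul_cancel hv0 hvT]
  have hρK : ∀ᵐ x ∂ρ, x ∈ K := by
    have h0 : ∀ᵐ x ∂(volume.restrict K), x ∈ K := ae_restrict_mem hK
    exact Measure.ae_smul_measure h0 _
  set w : E d := EuclideanSpace.single i r with hw
  have hwn : ‖w‖ = r := by
    rw [hw, EuclideanSpace.norm_single, Real.norm_eq_abs, abs_of_pos hr0]
  set D : E d → ℝ := fun x => a' (x + w) + a' (x - w) - 2 * a' x with hD
  have hac : Continuous a' := h2.lipa.continuous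
  have hDc : Continuous D :=
    ((hac.comp (continuous_add_const w)).add (hac.comp (continuous_id.sub continuous_const))).sub
      (continuous_const.mul hac)
  have hDb : ∀ x, |D x| ≤ 2 * (R * r) := by
    intro x
    have l1 := h2.lipa.dist_le_mul (x + w) x
    have l2 := h2.lipa.dist_le_mul (x - w) x
    rw [Real.dist_eq, dist_eq_norm] at l1 l2
    have e1 : x + w - x = w := by abel
    have e2 : x - w - x = -w := by abel
    rw [e1, hwn] at l1
    rw [e2, norm_neg, hwn] at l2
    have e3 : D x = (a' (x + w) - a' x) + (a' (x - w) - a' x) := by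
      simp only [hD]; ring
    rw [e3]
    refine (abs_add_le _ _).trans ?_
    linarith
  have iD : Integrable D ρ :=
    Integrable.of_bound hDc.measurable.aestronglyMeasurable (2 * (R * r))
      (Filter.Eventually.of_forall (fun x => by rw [Real.norm_eq_abs]; exact hDb x))
  have iG := gap_integrable ρ hKM hYR hρK hT hTY h2
  have hcoord : Measurable (fun x => |T x i - S x i|) := by
    have m1 : Measurable (fun x => T x i) := (EuclideanSpace.proj i).continuous.measurable.comp hT
    have m2 : Measurable (fun x => S x i) := (EuclideanSpace.proj i).continuous.measurable.comp hS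
    exact (m1.sub m2).abs
  have hci : ∀ y : E d, |y i| ≤ ‖y‖ := fun y => by
    have := EuclideanSpace.norm_eq y
    have h1 : ‖y i‖ ≤ ‖y‖ := PiLp.norm_apply_le y i
    simpa using h1
  have iV : Integrable (fun x => |T x i - S x i|) ρ := by
    refine Integrable.of_bound hcoord.aestronglyMeasurable (R + R) ?_
    filter_upwards [hTY, hSY] with x h1 h3
    rw [Real.norm_eq_abs, abs_abs]
    have b1 := (hci (T x)).trans (hYR _ h1)
    have b2 := (hci (S x)).trans (hYR _ h3)
    have := abs_sub (T x i) (S x i)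
    linarith
  have key : r * ∫ x, |T x i - S x i| ∂ρ ≤
      ∫ x, ((a' x + b' (T x) - ⟪x, T x⟫) + D x) ∂ρ := by
    rw [← integral_const_mul]
    apply integral_mono_ae (iV.const_mul r) (iG.add iD)
    filter_upwards [hTY, hSY, t2] with x h1 h3 h4
    exact local_pointwise h2 h1 h3 h4 i hr0.le
  have hDint : ∫ x, D x ∂ρ ≤ (volume K).toReal⁻¹ *
      (R * r ^ 2 * (volume (Metric.closedBall (0 : E d) (M + 2))).toReal) := by
    have h3 := second_diff_integral hK hKM h2.lipa h2.mid w (by rw [hwn]; exact hr1)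
    rw [hwn] at h3
    rw [hρ, integral_smul_measure, ENNReal.toReal_inv, smul_eq_mul]
    exact mul_le_mul_of_nonneg_left h3 (inv_nonneg.mpr ENNReal.toReal_nonneg)
  rw [integral_add iG iD] at key
  linarith

end Vale.Agent.Lib.P074q
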