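import Vale.Agent.Lib.P074q.Assemble
import Vale.Agent.Lib.P074q.Inf
import Vale.Agent.Lib.P074q.Subgrad
import Vale.Agent.Lib.P074q.Brenier.Main

open MeasureTheory ENNReal
open scoped NNReal RealInnerProductSpace

namespace Vale.Agent.Lib.P074q

variable {d : ℕ}

theorem isProbabilityMeasure_unif {K : Set (E d)} (hv0 : volume K ≠ 0) (hvT : volume K ≠ ⊤) :
    IsProbabilityMeasure ((volume K)⁻¹ • volume.restrict K) :=
  ⟨by simp [ENNReal.inv_mul_cancel hv0 hvT]⟩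

theorem ae_mem_unif {K : Set (E d)} (hK : MeasurableSet K) :
    ∀ᵐ x ∂((volume K)⁻¹ • volume.restrict K), x ∈ K :=
  Measure.ae_smul_measure (ae_restrict_mem hK) _

/-- The common part of the two stages: stability for maps that admit tight potential pairs. -/
theorem stability_of_potPairs (K : Set (E d)) (hK : IsCompact K) (hKi : (interior K).Nonempty)
    (Y : Set (E d)) (hY : IsCompact Y) :
    ∃ M R C : ℝ≥0, (∀ z ∈ K, ‖z‖ ≤ M) ∧ (∀ y ∈ Y, ‖y‖ ≤ R) ∧
      ∀ μ ν : Measure (E d), (∀ᵐ y ∂μ, y ∈ Y) → (∀ᵐ y ∂ν, y ∈ Y) →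
      ∀ T S : E d → E d, Measurable T → Measurable S →
        ((volume K)⁻¹ • volume.restrict K).map T = μ →
        ((volume K)⁻¹ • volume.restrict K).map S = ν →
        (∃ a b : E d → ℝ, PotPair Y M R a b ∧ Tight ((volume K)⁻¹ • volume.restrict K) T a b) →
        (∃ a b : E d → ℝ, PotPair Y M R a b ∧ Tight ((volume K)⁻¹ • volume.restrict K) S a b) →
        eLpNorm (fun x => T x - S x) 2 ((volume K)⁻¹ • volume.restrict K) ≤
          C * Vale.Agent.Lib.P074c.Wass 1 μ ν ^ (1 / 4 : ℝ) := by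
  obtain ⟨M0, hM0⟩ := hK.isBounded.exists_norm_le
  obtain ⟨R0, hR0⟩ := hY.isBounded.exists_norm_le
  have hKM : ∀ z ∈ K, ‖z‖ ≤ (M0.toNNReal : ℝ) :=
    fun z hz => (hM0 z hz).trans (Real.le_coe_toNNReal M0)
  have hYR : ∀ y ∈ Y, ‖y‖ ≤ (R0.toNNReal : ℝ) :=
    fun y hy => (hR0 y hy).trans (Real.le_coe_toNNReal R0)
  have hv0 : volume K ≠ 0 := (Measure.measure_pos_of_nonempty_interior volume hKi).ne'
  have hvT : volume K ≠ ⊤ := hK.measure_lt_top.ne
  obtain ⟨C, hC⟩ := core_bound K Y M0.toNNReal R0.toNNReal hK.measurableSet hKM hYR hv0 hvT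
  refine ⟨M0.toNNReal, R0.toNNReal, C, hKM, hYR, ?_⟩
  intro μ ν hμY hνY T S hT hS hmT hmS hpT hpS
  obtain ⟨a, b, hp, ht⟩ := hpT
  obtain ⟨a', b', hp', ht'⟩ := hpS
  have hTY : ∀ᵐ x ∂((volume K)⁻¹ • volume.restrict K), T x ∈ Y := by
    rw [← hmT] at hμY
    exact (ae_map_iff hT.aemeasurable hY.measurableSet).mp hμY
  have hSY : ∀ᵐ x ∂((volume K)⁻¹ • volume.restrict K), S x ∈ Y := by
    rw [← hmS] at hνY
    exact (ae_map_iff hS.aemeasurable hY.measurableSet).mp hνY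
  have hρ := isProbabilityMeasure_unif hv0 hvT
  have hμ : IsProbabilityMeasure μ := hmT ▸ Measure.isProbabilityMeasure_map hT.aemeasurable
  have hν : IsProbabilityMeasure ν := hmS ▸ Measure.isProbabilityMeasure_map hS.aemeasurable
  exact le_wass_one_of_forall_coupling (by norm_num)
    (fun π h1 h2 => hC T S a b a' b' hT hS hTY hSY hp hp' ht ht' π
      (h1.trans hmT.symm) (h2.trans hmS.symm))

/-- Stage 1 (does not use the Brenier folder): stability for maps that are a.e. subgradients. -/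
theorem stability_of_subgradient_maps (d : ℕ) (K : Set (E d)) (hK : IsCompact K)
    (hKi : (interior K).Nonempty) (Y : Set (E d)) (hY : IsCompact Y) (hYne : Y.Nonempty) :
    ∃ C : ℝ≥0, ∀ μ ν : Measure (E d), IsProbabilityMeasure μ → IsProbabilityMeasure ν →
      (∀ᵐ y ∂μ, y ∈ Y) → (∀ᵐ y ∂ν, y ∈ Y) →
      ∀ T S : E d → E d, Measurable T → Measurable S →
        (Vale.Agent.Lib.P074c.unif K).map T = μ → (Vale.Agent.Lib.P074c.unif K).map S = ν →
        (∃ φ : E d → ℝ, ∀ᵐ x ∂(Vale.Agent.Lib.P074c.unif K), ∀ z ∈ K, φ x + ⟪T x, z - x⟫ ≤ φ z) →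
        (∃ ψ : E d → ℝ, ∀ᵐ x ∂(Vale.Agent.Lib.P074c.unif K), ∀ z ∈ K, ψ x + ⟪S x, z - x⟫ ≤ ψ z) →
        eLpNorm (fun x => T x - S x) 2 (Vale.Agent.Lib.P074c.unif K) ≤
          C * Vale.Agent.Lib.P074c.Wass 1 μ ν ^ (1 / 4 : ℝ) := by
  obtain ⟨M, R, C, hKM, hYR, hC⟩ := stability_of_potPairs K hK hKi Y hY
  have hv0 : volume K ≠ 0 := (Measure.measure_pos_of_nonempty_interior volume hKi).ne'
  have hvT : volume K ≠ ⊤ := hK.measure_lt_top.ne
  have := isProbabilityMeasure_unif hv0 hvT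
  refine ⟨C, ?_⟩
  intro μ ν _ _ hμY hνY T S hT hS hmT hmS hφ hψ
  obtain ⟨φ, hφ⟩ := hφ
  obtain ⟨ψ, hψ⟩ := hψ
  have hTY : ∀ᵐ x ∂((volume K)⁻¹ • volume.restrict K), T x ∈ Y := by
    have h := hμY
    rw [← hmT] at h
    exact (ae_map_iff hT.aemeasurable hY.measurableSet).mp h
  have hSY : ∀ᵐ x ∂((volume K)⁻¹ • volume.restrict K), S x ∈ Y := by
    have h := hνY
    rw [← hmS] at h
    exact (ae_map_iff hS.aemeasurable hY.measurableSet).mp h
  exact hC μ ν hμY hνY T S hT hS hmT hmS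
    (potPair_of_subgrad hKM hYR _ (ae_mem_unif hK.measurableSet) T hTY φ hφ)
    (potPair_of_subgrad hKM hYR _ (ae_mem_unif hK.measurableSet) S hSY ψ hψ)

/-- `1/4` is admissible with respect to `W₁`. -/
theorem admissible_W1_quarter (d : ℕ) : Vale.Agent.Lib.P074c.Admissible d 1 (1 / 4) := by
  refine ⟨by norm_num, by norm_num, ?_⟩
  intro K hK _ hKi Y hY hYne
  obtain ⟨M, R, C, hKM, hYR, hC⟩ := stability_of_potPairs K hK hKi Y hY
  have hv0 : volume K ≠ 0 := (Measure.measure_pos_of_nonempty_interior volume hKi).ne'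
  refine ⟨C, ?_⟩
  intro μ ν hμ hν hμY hνY T S hT hS
  exact hC μ ν hμY hνY T S hT.1 hS.1 hT.2.1 hS.2.1
    (potPair_of_isOTMap hK hv0 hY hYne hKM hYR μ hμY T hT)
    (potPair_of_isOTMap hK hv0 hY hYne hKM hYR ν hνY S hS)

/-- `1/4` is admissible (with respect to `W₂`). -/
theorem admissible_quarter (d : ℕ) : Vale.Agent.Lib.P074b.Admissible d (1 / 4) := by
  obtain ⟨h0, h1, h⟩ := admissible_W1_quarter d
  refine ⟨h0, h1, ?_⟩
  intro K hK hKc hKi Y hY hYne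
  obtain ⟨C, hC⟩ := h K hK hKc hKi Y hY hYne
  refine ⟨C, ?_⟩
  intro μ ν hμ hν hμY hνY T S hT hS
  refine (hC μ ν hμ hν hμY hνY T S hT hS).trans ?_
  gcongr
  exact wass_one_le_W2

end Vale.Agent.Lib.P074q
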