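import Vale.Agent.Lib.P074q.Defs

open MeasureTheory ENNReal
open scoped NNReal RealInnerProductSpace

namespace Vale.Agent.Lib.P074q

variable {d : ℕ}

lemma clamp_lip (s t : ℝ) : |max 0 (min 1 s) - max 0 (min 1 t)| ≤ |s - t| := by
  have h1 := le_abs_self (s - t)
  have h2 := neg_abs_le (s - t)
  rw [abs_le]
  constructor <;> (simp only [max_def, min_def]; split_ifs <;> linarith)

/-- The integral over `K` of the symmetric second difference of a Lipschitz midpoint-convex
function is `O(‖w‖²)`.  Proof: with the 1-Lipschitz cutoff `χ x = max 0 (min 1 (M + 1 - ‖x‖))`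
(`= 1` on `K`, `= 0` off the ball of radius `M+1`) and `g x = a (x + w) - a x`,
`∫_K Δ ≤ ∫ χ Δ = ∫ χ(x) g(x) - ∫ χ(x) g(x - w) = ∫ (χ(x) - χ(x + w)) g(x)`
and `|g| ≤ R ‖w‖`, `|χ(x) - χ(x+w)| ≤ ‖w‖`, vanishing off the ball of radius `M + 2`. -/
theorem second_diff_integral {K : Set (E d)} (hK : MeasurableSet K) {M R : ℝ≥0}
    (hKM : ∀ z ∈ K, ‖z‖ ≤ M) {a : E d → ℝ} (ha : LipschitzWith R a)
    (hmid : ∀ x w, 2 * a x ≤ a (x + w) + a (x - w)) (w : E d) (hw : ‖w‖ ≤ 1) :
    ∫ x in K, (a (x + w) + a (x - w) - 2 * a x) ≤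
      R * ‖w‖ ^ 2 * (volume (Metric.closedBall (0 : E d) (M + 2))).toReal := by
  classical
  set χ : E d → ℝ := fun x => max 0 (min 1 ((M : ℝ) + 1 - ‖x‖)) with hχ
  set g : E d → ℝ := fun x => a (x + w) - a x with hg
  set Δ : E d → ℝ := fun x => a (x + w) + a (x - w) - 2 * a x with hΔ
  have hac : Continuous a := ha.continuous
  have hχc : Continuous χ := by
    simp only [hχ]
    exact continuous_const.max (continuous_const.min (continuous_const.sub continuous_norm))
  have hgc : Continuous g := (hac.comp (continuous_add_const w)).sub hac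
  have hΔc : Continuous Δ :=
    ((hac.comp (continuous_add_const w)).add (hac.comp ((continuous_id.sub continuous_const)))).sub
      (continuous_const.mul hac)
  have hχ0 : ∀ x, 0 ≤ χ x := fun x => le_max_left _ _
  have hχK : ∀ x ∈ K, χ x = 1 := by
    intro x hx
    have h1 := hKM x hx
    simp only [hχ]
    rw [min_eq_left (by linarith), max_eq_right zero_le_one]
  have hχout : ∀ x, (M : ℝ) + 1 ≤ ‖x‖ → χ x = 0 := by
    intro x hx
    simp only [hχ]
    apply max_eq_left
    exact (min_le_right _ _).trans (by linarith)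
  have hχlip : ∀ x, |χ x - χ (x + w)| ≤ ‖w‖ := by
    intro x
    simp only [hχ]
    refine (clamp_lip _ _).trans ?_
    have h1 : (M : ℝ) + 1 - ‖x‖ - ((M : ℝ) + 1 - ‖x + w‖) = ‖x + w‖ - ‖x‖ := by ring
    rw [h1]
    refine (abs_norm_sub_norm_le _ _).trans ?_
    simp
  have hgb : ∀ x, |g x| ≤ R * ‖w‖ := by
    intro x
    have h1 := ha.dist_le_mul (x + w) x
    rw [Real.dist_eq, dist_eq_norm] at h1
    simpa [hg] using h1
  have hΔ0 : ∀ x, 0 ≤ Δ x := by
    intro x
    have := hmid x w
    simp only [hΔ]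
    linarith
  have hshift : ∀ x, (M : ℝ) + 2 < ‖x‖ → (M : ℝ) + 1 ≤ ‖x + w‖ := by
    intro x hx
    have h1 : ‖x‖ ≤ ‖x + w‖ + ‖w‖ := by
      have := norm_sub_le (x + w) w
      simpa using this
    linarith
  -- integrability
  have hcs1 : ∀ f : E d → ℝ, Continuous f → Integrable (fun x => χ x * f x) := by
    intro f hf
    apply (hχc.mul hf).integrable_of_hasCompactSupport
    apply HasCompactSupport.intro (isCompact_closedBall (0 : E d) ((M : ℝ) + 1))
    intro x hx
    have h1 : (M : ℝ) + 1 ≤ ‖x‖ := by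
      rw [Metric.mem_closedBall, dist_zero_right, not_le] at hx
      exact hx.le
    show χ x * f x = 0
    rw [hχout x h1, zero_mul]
  have hcs2 : Integrable (fun x => χ (x + w) * g x) := by
    apply ((hχc.comp (continuous_add_const w)).mul hgc).integrable_of_hasCompactSupport
    apply HasCompactSupport.intro (isCompact_closedBall (0 : E d) ((M : ℝ) + 2))
    intro x hx
    have h1 : (M : ℝ) + 2 < ‖x‖ := by
      rw [Metric.mem_closedBall, dist_zero_right, not_le] at hx
      exact hx
    show χ (x + w) * g x = 0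
    rw [hχout _ (hshift x h1), zero_mul]
  -- step 1
  have step1 : ∫ x in K, Δ x ≤ ∫ x, χ x * Δ x := by
    rw [← integral_indicator hK]
    apply integral_mono_of_nonneg
    · exact Filter.Eventually.of_forall (fun x => Set.indicator_nonneg (fun y _ => hΔ0 y) x)
    · exact hcs1 Δ hΔc
    · refine Filter.Eventually.of_forall (fun x => ?_)
      by_cases hx : x ∈ K
      · simp only [Set.indicator_of_mem hx, hχK x hx, one_mul, le_refl]
      · simp only [Set.indicator_of_notMem hx]
        exact mul_nonneg (hχ0 x) (hΔ0 x)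
  -- step 2
  have hgs : Continuous (fun x => g (x - w)) := hgc.comp ((continuous_id.sub continuous_const))
  have step2 : ∫ x, χ x * Δ x = ∫ x, (χ x - χ (x + w)) * g x := by
    have e1 : ∀ x, χ x * Δ x = χ x * g x - χ x * g (x - w) := by
      intro x
      simp only [hg, hΔ, sub_add_cancel]
      ring
    have e2 : ∫ x, χ x * g (x - w) = ∫ x, χ (x + w) * g x := by
      have := integral_add_right_eq_self (μ := (volume : Measure (E d)))
        (fun x => χ x * g (x - w)) w
      simp only [add_sub_cancel_right] at this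
      exact this.symm
    calc ∫ x, χ x * Δ x = ∫ x, (χ x * g x - χ x * g (x - w)) := by
          congr 1; funext x; exact e1 x
      _ = (∫ x, χ x * g x) - ∫ x, χ x * g (x - w) := integral_sub (hcs1 g hgc) (hcs1 _ hgs)
      _ = (∫ x, χ x * g x) - ∫ x, χ (x + w) * g x := by rw [e2]
      _ = ∫ x, (χ x * g x - χ (x + w) * g x) := (integral_sub (hcs1 g hgc) hcs2).symm
      _ = ∫ x, (χ x - χ (x + w)) * g x := by
          congr 1; funext x; ring
  -- step 3
  set B : Set (E d) := Metric.closedBall (0 : E d) ((M : ℝ) + 2) with hB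
  have hBm : MeasurableSet B := Metric.isClosed_closedBall.measurableSet
  have hBfin : volume B ≠ ∞ := (measure_closedBall_lt_top).ne
  have step3 : ∫ x, (χ x - χ (x + w)) * g x ≤ ∫ x, B.indicator (fun _ => (R : ℝ) * ‖w‖ ^ 2) x := by
    apply integral_mono
    · have : (fun x => (χ x - χ (x + w)) * g x) = fun x => χ x * g x - χ (x + w) * g x := by
        funext x; ring
      rw [this]
      exact (hcs1 g hgc).sub hcs2
    · exact (integrable_indicator_iff hBm).mpr (integrableOn_const hBfin)
    · intro x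
      have h1 : (χ x - χ (x + w)) * g x ≤ ‖w‖ * ((R : ℝ) * ‖w‖) := by
        calc (χ x - χ (x + w)) * g x ≤ |(χ x - χ (x + w)) * g x| := le_abs_self _
          _ = |χ x - χ (x + w)| * |g x| := abs_mul _ _
          _ ≤ ‖w‖ * ((R : ℝ) * ‖w‖) :=
              mul_le_mul (hχlip x) (hgb x) (abs_nonneg _) (norm_nonneg _)
      by_cases hx : x ∈ B
      · simp only [Set.indicator_of_mem hx]
        calc (χ x - χ (x + w)) * g x ≤ ‖w‖ * ((R : ℝ) * ‖w‖) := h1
          _ = (R : ℝ) * ‖w‖ ^ 2 := by ring
      · simp only [Set.indicator_of_notMem hx]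
        have h2 : (M : ℝ) + 2 < ‖x‖ := by
          rw [hB, Metric.mem_closedBall, dist_zero_right, not_le] at hx
          exact hx
        rw [hχout x (by linarith), hχout _ (hshift x h2)]
        simp
  have step4 : ∫ x, B.indicator (fun _ => (R : ℝ) * ‖w‖ ^ 2) x
      = (R : ℝ) * ‖w‖ ^ 2 * (volume B).toReal := by
    rw [integral_indicator_const _ hBm]
    simp [Measure.real, mul_comm]
  calc ∫ x in K, (a (x + w) + a (x - w) - 2 * a x) = ∫ x in K, Δ x := rfl
    _ ≤ ∫ x, χ x * Δ x := step1
    _ = ∫ x, (χ x - χ (x + w)) * g x := step2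
    _ ≤ ∫ x, B.indicator (fun _ => (R : ℝ) * ‖w‖ ^ 2) x := step3
    _ = (R : ℝ) * ‖w‖ ^ 2 * (volume B).toReal := step4

end Vale.Agent.Lib.P074q
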